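import Crest.Agent.R241.Trig

/-!
# Auxiliary results for `hyp_of_catZero`, `Hyp.catZero`, `Hyp.quad`.  Prefix `hypAb_`.
-/

open MeasureTheory Set Filter Topology
open Crest.GeometryTopology.MetricCurrent

noncomputable section

namespace Crest.Agent.R241

universe u

variable {X : Type u} [MetricSpace X] {σ : ℝ}

/-- a continuous midpoint convex function lies below its chord -/
theorem hypAb_chord {f : ℝ → ℝ} (hc : ContinuousOn f (Icc 0 1))
    (hm : ∀ s ∈ Icc (0 : ℝ) 1, ∀ t ∈ Icc (0 : ℝ) 1, f ((s + t) / 2) ≤ (f s + f t) / 2) :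
    ∀ t ∈ Icc (0 : ℝ) 1, f t ≤ (1 - t) * f 0 + t * f 1 := by
  have hc' : ContinuousOn (fun t => f t - ((1 - t) * f 0 + t * f 1)) (Icc 0 1) :=
    hc.sub (by fun_prop)
  obtain ⟨t₀, ht₀, hmax⟩ := isCompact_Icc.exists_isMaxOn (nonempty_Icc.2 zero_le_one) hc'
  have key : f t₀ - ((1 - t₀) * f 0 + t₀ * f 1) ≤ 0 := by
    rcases le_total t₀ (1 / 2) with h | h
    · have h1 : 2 * t₀ ∈ Icc (0 : ℝ) 1 := ⟨by linarith [ht₀.1], by linarith⟩
      have h2 := hm 0 ⟨le_rfl, zero_le_one⟩ _ h1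
      have h3 : f (2 * t₀) - ((1 - 2 * t₀) * f 0 + 2 * t₀ * f 1) ≤
          f t₀ - ((1 - t₀) * f 0 + t₀ * f 1) := hmax h1
      rw [show (0 + 2 * t₀) / 2 = t₀ by ring] at h2
      linarith
    · have h1 : 2 * t₀ - 1 ∈ Icc (0 : ℝ) 1 := ⟨by linarith, by linarith [ht₀.2]⟩
      have h2 := hm _ h1 1 ⟨zero_le_one, le_rfl⟩
      have h3 : f (2 * t₀ - 1) - ((1 - (2 * t₀ - 1)) * f 0 + (2 * t₀ - 1) * f 1) ≤
          f t₀ - ((1 - t₀) * f 0 + t₀ * f 1) := hmax h1
      rw [show (2 * t₀ - 1 + 1) / 2 = t₀ by ring] at h2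
      linarith
  intro t ht
  have h3 : f t - ((1 - t) * f 0 + t * f 1) ≤ f t₀ - ((1 - t₀) * f 0 + t₀ * f 1) := hmax ht
  linarith

theorem hypAb_hyp_of_catZero (h : IsCATZero X) : Hyp 0 X := by
  intro x y
  obtain ⟨γ, h0, h1, hd⟩ := h.1 x y
  rcases (dist_nonneg (x := x) (y := y)).eq_or_lt with hr | hr
  · have hxy : x = y := dist_eq_zero.1 hr.symm
    subst hxy
    refine ⟨fun _ => x, rfl, rfl, fun s hs t ht => ?_, fun p a ha => ?_⟩
    · rw [dist_self] at hs ht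
      rw [dist_self, le_antisymm hs.2 hs.1, le_antisymm ht.2 ht.1]; simp
    · rw [dist_self] at ha
      rw [le_antisymm ha.2 ha.1]; simp
  set r := dist x y with hr'
  have hmem : ∀ a ∈ Icc 0 r, a / r ∈ Icc (0 : ℝ) 1 := fun a ha =>
    ⟨div_nonneg ha.1 hr.le, (div_le_one hr).2 ha.2⟩
  refine ⟨fun a => γ (a / r), by simp [h0], by simp [← hr', div_self hr.ne', h1],
    fun s hs t ht => ?_, fun p a ha => ?_⟩
  · rw [hd _ (hmem s hs) _ (hmem t ht), ← sub_div, abs_div, abs_of_pos hr, div_mul_cancel₀ _ hr.ne']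
  · have hγ : ContinuousOn γ (Icc 0 1) := by
      refine (LipschitzOnWith.of_dist_le_mul (K := ⟨r, hr.le⟩) fun s hs t ht => ?_).continuousOn
      rw [hd s hs t ht, Real.dist_eq, mul_comm]
      exact le_rfl
    have hf := hypAb_chord (f := fun t => dist p (γ t) ^ 2 - t ^ 2 * r ^ 2)
      (((((continuous_const.dist continuous_id).comp_continuousOn hγ)).pow 2).sub (by fun_prop)) (fun s hs t ht => by
        have hm : (s + t) / 2 ∈ Icc (0 : ℝ) 1 := ⟨by linarith [hs.1, ht.1], by linarith [hs.2, ht.2]⟩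
        have := h.2 p (γ s) (γ t) (γ ((s + t) / 2))
          (by rw [hd s hs _ hm, hd s hs t ht, show s - (s + t) / 2 = (s - t) / 2 by ring, abs_div,
                abs_two]; ring)
          (by rw [hd t ht _ hm, hd s hs t ht, show t - (s + t) / 2 = -(s - t) / 2 by ring, abs_div,
                abs_neg, abs_two]; ring)
        rw [hd s hs t ht, mul_pow, sq_abs] at this
        nlinarith) (a / r) (hmem a ha)
    simp only [h0, h1] at hf
    simp only [kap, sn_zero_left, md_zero_left, ← hr']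
    obtain ⟨t, rfl⟩ : ∃ t, a = t * r := ⟨a / r, (div_mul_cancel₀ _ hr.ne').symm⟩
    rw [mul_div_cancel_right₀ _ hr.ne'] at hf ⊢
    have := mul_le_mul_of_nonneg_left hf hr.le
    nlinarith

theorem hypAb_point (h : Hyp 0 X) (x y : X) {t : ℝ} (ht : t ∈ Icc (0 : ℝ) 1) : ∃ m : X, ∀ p,
    dist p m ^ 2 ≤ (1 - t) * dist p x ^ 2 + t * dist p y ^ 2 - t * (1 - t) * dist x y ^ 2 := by
  rcases (dist_nonneg (x := x) (y := y)).eq_or_lt with hr | hr
  · have hxy : x = y := dist_eq_zero.1 hr.symm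
    subst hxy
    exact ⟨x, fun p => by rw [dist_self]; nlinarith⟩
  obtain ⟨g, hg⟩ := h x y
  refine ⟨g (t * dist x y), fun p => ?_⟩
  have := hg.cmp p (t * dist x y) ⟨mul_nonneg ht.1 hr.le, by nlinarith [ht.2]⟩
  simp only [kap, sn_zero_left, md_zero_left] at this
  refine le_of_mul_le_mul_left ?_ hr
  nlinarith

theorem hypAb_quad (h : Hyp 0 X) (x x' y y' : X) :
    dist x y ^ 2 + dist x' y' ^ 2
      ≤ dist x y' ^ 2 + dist x' y ^ 2 + 2 * dist x x' * dist y y' := by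
  rcases (dist_nonneg (x := x) (y := x')).eq_or_lt with hA | hA
  · have hxy : x = x' := dist_eq_zero.1 hA.symm
    subst hxy
    rw [dist_self]; linarith
  rcases (dist_nonneg (x := y) (y := y')).eq_or_lt with hB | hB
  · have hxy : y = y' := dist_eq_zero.1 hB.symm
    subst hxy
    rw [dist_self]; linarith
  set A := dist x x' with hA'
  set B := dist y y' with hB'
  have hAB : 0 < A + B := by positivity
  have ht : A / (A + B) ∈ Icc (0 : ℝ) 1 := ⟨by positivity, (div_le_one hAB).2 (by linarith)⟩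
  set t := A / (A + B) with ht'
  have e1 : t * B = (1 - t) * A := by rw [ht']; field_simp; ring
  have t0 : 0 < t := by positivity
  have t1 : 0 < 1 - t := by
    have : t < 1 := (div_lt_one hAB).2 (by linarith)
    linarith
  obtain ⟨m, hm⟩ := hypAb_point h x y ht
  obtain ⟨m', hm'⟩ := hypAb_point h x' y' ht
  have a1 := hm m'
  have a2 := hm' x
  have a3 := hm' y
  rw [dist_comm m' x, dist_comm m' y] at a1
  rw [dist_comm y x'] at a3
  have a4 := mul_le_mul_of_nonneg_left a2 t1.le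
  have a5 := mul_le_mul_of_nonneg_left a3 t0.le
  have a6 : 0 ≤ dist m' m ^ 2 := by positivity
  have e2 : (1 - t) ^ 2 * A ^ 2 = t * (1 - t) * (A * B) := by
    calc (1 - t) ^ 2 * A ^ 2 = ((1 - t) * A) * ((1 - t) * A) := by ring
      _ = (t * B) * ((1 - t) * A) := by rw [e1]
      _ = _ := by ring
  have e3 : t ^ 2 * B ^ 2 = t * (1 - t) * (A * B) := by
    calc t ^ 2 * B ^ 2 = (t * B) * (t * B) := by ring
      _ = (t * B) * ((1 - t) * A) := by rw [← e1]
      _ = _ := by ring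
  have key : t * (1 - t) * (dist x y ^ 2 + dist x' y' ^ 2) ≤
      t * (1 - t) * (dist x y' ^ 2 + dist x' y ^ 2 + 2 * A * B) := by
    nlinarith
  exact le_of_mul_le_mul_left key (mul_pos t0 t1)

theorem hypAb_pow {x y δ : ℝ} (hx : 0 ≤ x) (hxy : x ≤ y) (hδ : 0 ≤ δ) (n : ℕ) :
    (x + δ) ^ n - x ^ n ≤ (y + δ) ^ n - y ^ n := by
  induction n with
  | zero => simp
  | succ n ih =>
    have h0 : 0 ≤ (x + δ) ^ n - x ^ n := sub_nonneg.2 (pow_le_pow_left₀ hx (by linarith) n)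
    have h1 := mul_le_mul (show x + δ ≤ y + δ by linarith) ih h0 (by linarith)
    have h2 := mul_le_mul_of_nonneg_left (pow_le_pow_left₀ hx hxy n) hδ
    rw [pow_succ, pow_succ, pow_succ, pow_succ]
    nlinarith

theorem hypAb_cosh {B C U V : ℝ} (hs : B ^ 2 + C ^ 2 = U ^ 2 + V ^ 2) (h1 : V ^ 2 ≤ B ^ 2)
    (h2 : V ^ 2 ≤ C ^ 2) : Real.cosh B + Real.cosh C ≤ Real.cosh U + Real.cosh V := by
  refine hasSum_le (fun n => ?_) ((Real.hasSum_cosh B).add (Real.hasSum_cosh C))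
    ((Real.hasSum_cosh U).add (Real.hasSum_cosh V))
  have h := hypAb_pow (sq_nonneg V) h2 (sub_nonneg.2 h1) n
  rw [show V ^ 2 + (B ^ 2 - V ^ 2) = B ^ 2 by ring, show C ^ 2 + (B ^ 2 - V ^ 2) = U ^ 2 by linarith] at h
  rw [← add_div, ← add_div, pow_mul, pow_mul, pow_mul, pow_mul]
  exact div_le_div_of_nonneg_right (by linarith) (by positivity)

theorem hypAb_scalar {B C R E : ℝ} (hB : 0 ≤ B) (hC : 0 ≤ C) (hR : 0 ≤ R) (hE : 0 ≤ E)
    (h1 : 2 * R ≤ B + C) (h2 : |B - C| ≤ 2 * R)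
    (h : 2 * Real.cosh R * Real.cosh E ≤ Real.cosh B + Real.cosh C) :
    E ^ 2 ≤ (B ^ 2 + C ^ 2) / 2 - R ^ 2 := by
  have a1 : (2 * R) ^ 2 ≤ (B + C) ^ 2 := pow_le_pow_left₀ (by positivity) h1 2
  have a2 : (B - C) ^ 2 ≤ (2 * R) ^ 2 := by
    rw [← sq_abs]; exact pow_le_pow_left₀ (abs_nonneg _) h2 2
  have h0 : 0 ≤ (B ^ 2 + C ^ 2) / 2 - R ^ 2 := by nlinarith [sq_nonneg (B - C)]
  obtain ⟨F, hF, hF2⟩ : ∃ F : ℝ, 0 ≤ F ∧ F ^ 2 = (B ^ 2 + C ^ 2) / 2 - R ^ 2 :=
    ⟨√_, Real.sqrt_nonneg _, Real.sq_sqrt h0⟩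
  have hs : B ^ 2 + C ^ 2 = (R + F) ^ 2 + (R - F) ^ 2 := by nlinarith
  have hp : (R ^ 2 - F ^ 2) ^ 2 ≤ (B * C) ^ 2 := sq_le_sq' (by nlinarith) (by nlinarith)
  have hle : (R - F) ^ 2 ≤ (R + F) ^ 2 := by nlinarith [mul_nonneg hR hF]
  have hq : ∀ t s : ℝ, t + s = (R + F) ^ 2 + (R - F) ^ 2 → (R ^ 2 - F ^ 2) ^ 2 ≤ t * s →
      (R - F) ^ 2 ≤ t := by
    intro t s e hp'
    by_contra hc
    have hc' := not_le.1 hc
    have := mul_pos (sub_pos.2 hc') (sub_pos.2 (hc'.trans_le hle))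
    have e' : s = (R + F) ^ 2 + (R - F) ^ 2 - t := by linarith
    rw [e'] at hp'
    nlinarith
  have hc := hypAb_cosh hs (hq _ _ hs (by rw [← mul_pow]; exact hp))
    (hq _ (B ^ 2) (by linarith) (by rw [← mul_pow, mul_comm C B]; exact hp))
  rw [Real.cosh_add, Real.cosh_sub] at hc
  have h3 : Real.cosh E ≤ Real.cosh F := by
    refine le_of_mul_le_mul_left ?_ (show 0 < 2 * Real.cosh R by positivity)
    linarith
  rw [Real.cosh_le_cosh, abs_of_nonneg hE, abs_of_nonneg hF] at h3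
  rw [← hF2]
  exact pow_le_pow_left₀ hE h3 2

theorem hypAb_catZero (hσ : 0 ≤ σ) (h : Hyp σ X) : IsCATZero X := by
  refine ⟨fun x y => ?_, fun p x y m hx hy => ?_⟩
  · obtain ⟨g, hg⟩ := h x y
    have hr := dist_nonneg (x := x) (y := y)
    have hm : ∀ s ∈ Icc (0 : ℝ) 1, s * dist x y ∈ Icc 0 (dist x y) := fun s hs =>
      ⟨mul_nonneg hs.1 hr, by nlinarith [hs.2]⟩
    refine ⟨fun t => g (t * dist x y), by simp [hg.zero], by simp [hg.last], fun s hs t ht => ?_⟩
    rw [hg.iso _ (hm s hs) _ (hm t ht), ← sub_mul, abs_mul, abs_of_nonneg hr]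
  rcases (dist_nonneg (x := x) (y := y)).eq_or_lt with hr | hr
  · have hxy : x = y := dist_eq_zero.1 hr.symm
    subst hxy
    rw [dist_self, zero_div, dist_eq_zero] at hx
    subst hx
    rw [dist_self]; linarith
  obtain ⟨g, hg⟩ := h x y
  set r := dist x y with hr'
  have hs : 0 < sn σ (r / 2) := sn_pos hσ (by positivity)
  have hu : 0 ≤ md σ (r / 2) := md_nonneg hσ _
  have e1 : sn σ r = 2 * sn σ (r / 2) * (1 + σ * md σ (r / 2)) := by
    have := sn_add hσ (r / 2) (r / 2)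
    rw [add_halves] at this
    rw [this]; ring
  have e2 : md σ r = 2 * (2 * md σ (r / 2) + σ * md σ (r / 2) ^ 2) := by
    rw [md_eq_half hσ r, sn_sq hσ]
  have key : ∀ q : X, 2 * (1 + σ * md σ (r / 2)) * md σ (dist q (g (r / 2))) ≤
      md σ (dist q x) + md σ (dist q y) - 2 * md σ (r / 2) := by
    intro q
    have := hg.cmp q (r / 2) ⟨by positivity, by linarith⟩
    simp only [kap, ← hr'] at this
    rw [show r - r / 2 = r / 2 by ring, e1, e2] at this
    refine le_of_mul_le_mul_left ?_ hs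
    linarith
  have hm : m = g (r / 2) := by
    have h1 := key m
    rw [dist_comm m x, dist_comm m y, hx, hy] at h1
    by_contra hne
    have h2 := md_pos hσ (dist_pos.2 hne).ne'
    have h3 : 0 < 2 * (1 + σ * md σ (r / 2)) * md σ (dist m (g (r / 2))) := by positivity
    linarith
  have h1 := key p
  rw [← hm] at h1
  rcases hσ.eq_or_lt with h0 | h0
  · subst h0
    simp only [md_zero_left] at h1
    nlinarith
  have hq : 0 < √σ := Real.sqrt_pos.2 h0
  have hcs : ∀ t, Real.cosh (√σ * t) = 1 + σ * md σ t := by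
    intro t
    rw [md, if_neg h0.ne']
    field_simp
    ring
  have h2 := hypAb_scalar (B := √σ * dist p x) (C := √σ * dist p y) (R := √σ * (r / 2))
    (E := √σ * dist p m) (by positivity) (by positivity) (by positivity) (by positivity)
    (by
      have := dist_triangle_left x y p
      nlinarith)
    (by
      have := abs_dist_sub_le x y p
      rw [dist_comm x p, dist_comm y p] at this
      rw [← mul_sub, abs_mul, abs_of_pos hq]
      nlinarith)
    (by
      rw [hcs, hcs, hcs, hcs]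
      have := mul_le_mul_of_nonneg_left h1 hσ
      nlinarith)
  simp only [mul_pow, Real.sq_sqrt hσ] at h2
  refine le_of_mul_le_mul_left ?_ h0
  nlinarith

end Crest.Agent.R241
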